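import Mathlib
import Vale.Agent.P181.Defs
import Vale.Agent.P181.Rep
import Vale.Agent.P181.Rep3
import Vale.Agent.P181.V5

namespace Vale.Agent.Results.P181.A00_Combined

open Vale.Agent.P181

universe u v

open Classical in
/-- Conjunction of three results on Foulkes multiplicities in symmetric group form:
the kernel criterion for the Foulkes-Howe map with the multiplicity inequality it gives,
the inequality under a Young subgroup condition, and the generalised chain in the stable range. -/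
theorem result :
    (∀ (a b : ℕ), 0 < b → ∀ (Ω : Type u) [Fintype Ω], Fintype.card Ω = a * b →
      ∀ [Fintype (BlockPartition Ω b)]
      (W : Type v) [AddCommGroup W] [Module ℂ W] (ρ : Representation ℂ (Equiv.Perm Ω) W)
      [ρ.IsIrreducible] (T : Finset Ω) (w : W), w ≠ 0 →
      (∀ g : Equiv.Perm Ω, (∀ x ∈ T, g x = x) → ρ g w = w) →
      (b + 1 < T.card → ∀ κ : Ω → ℕ, b < (T.image κ).card → ∀ v : W,
        (∀ g : Equiv.Perm Ω, (∀ x ∈ T, g x ∈ T) →
          (∀ x ∈ T, ∀ y ∈ T, (κ (g x) = κ (g y) ↔ κ x = κ y)) → ρ g v = v) → v = 0) →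
      (∀ φ : ρ.IntertwiningMap
          (Representation.ofMulAction ℂ (Equiv.Perm Ω) (BlockPartition Ω b)),
        (∀ (u : W) (Q : BlockPartition Ω a),
          ∑ P : BlockPartition Ω b, (if Transversal P Q then (φ u).coeff P else 0) = 0) →
        φ = 0) ∧
      Module.finrank ℂ (ρ.IntertwiningMap
        (Representation.ofMulAction ℂ (Equiv.Perm Ω) (BlockPartition Ω b))) ≤
      Module.finrank ℂ (ρ.IntertwiningMap
        (Representation.ofMulAction ℂ (Equiv.Perm Ω) (BlockPartition Ω a)))) ∧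
    (∀ (a b : ℕ), 0 < b → ∀ (Ω : Type u) [Fintype Ω], Fintype.card Ω = a * b →
      ∀ (W : Type v) [AddCommGroup W] [Module ℂ W] (ρ : Representation ℂ (Equiv.Perm Ω) W)
      [ρ.IsIrreducible] (T : Finset Ω) (w : W), w ≠ 0 →
      (∀ g : Equiv.Perm Ω, (∀ x ∈ T, g x = x) → ρ g w = w) →
      (b + 1 < T.card → ∀ A ⊆ T, 2 * b + 2 ≤ A.card + T.card → ∀ v : W,
        (∀ g : Equiv.Perm Ω, (∀ x ∈ T \ A, g x = x) → (∀ x ∈ A, g x ∈ A) → ρ g v = v) →
          v = 0) →
      Module.finrank ℂ (ρ.IntertwiningMap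
        (Representation.ofMulAction ℂ (Equiv.Perm Ω) (BlockPartition Ω b))) ≤
      Module.finrank ℂ (ρ.IntertwiningMap
        (Representation.ofMulAction ℂ (Equiv.Perm Ω) (BlockPartition Ω a)))) ∧
    (∀ (a b c d : ℕ), 0 < b → 0 < d → ∀ (Ω : Type u) [Fintype Ω],
      Fintype.card Ω = a * b → Fintype.card Ω = c * d → a ≤ c →
      ∀ (W : Type v) [AddCommGroup W] [Module ℂ W] (ρ : Representation ℂ (Equiv.Perm Ω) W)
      [ρ.IsIrreducible] (T : Finset Ω), T.card ≤ d → ∀ (w : W), w ≠ 0 →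
      (∀ g : Equiv.Perm Ω, (∀ x ∈ T, g x = x) → ρ g w = w) →
      Module.finrank ℂ (ρ.IntertwiningMap
        (Representation.ofMulAction ℂ (Equiv.Perm Ω) (BlockPartition Ω b))) ≤
      Module.finrank ℂ (ρ.IntertwiningMap
        (Representation.ofMulAction ℂ (Equiv.Perm Ω) (BlockPartition Ω d))) ∧
      Module.finrank ℂ (ρ.IntertwiningMap
        (Representation.ofMulAction ℂ (Equiv.Perm Ω) (BlockPartition Ω d))) ≤
      Module.finrank ℂ (ρ.IntertwiningMap
        (Representation.ofMulAction ℂ (Equiv.Perm Ω) (BlockPartition Ω c)))) := by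
  refine ⟨?_, ?_, ?_⟩
  · intro a b hb Ω _ hΩ inst W _ _ ρ _ T w hw hfix hcol
    obtain rfl : inst = fintypeBlockPartition Ω b := Subsingleton.elim _ _
    have H := psi_injective_on_fixed_col (a := a) hb hΩ ρ T w hfix hcol
    exact ⟨fun φ hφ => no_copy_in_kernel_of_key ρ w hw H φ hφ, multiplicity_le_of_key ρ w hw H⟩
  · intro a b hb Ω _ hΩ W _ _ ρ _ T w hw hfix hA
    exact multiplicity_le_of_key ρ w hw (psi_injective_on_fixed_ext (a := a) hb hΩ ρ T w hfix hA)
  · intro a b c d hb hd Ω _ hΩ hΩ' hac W _ _ ρ _ T hT w hw hfix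
    exact ⟨multiplicity_le_gen hb hd hΩ hΩ' hac ρ T hT w hw hfix,
      multiplicity_le hd hΩ' ρ T (Nat.le_succ_of_le hT) w hw hfix⟩

end Vale.Agent.Results.P181.A00_Combined
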