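import Mathlib
import Vale.Agent.P181.Defs
import Vale.Agent.P181.Rep3

namespace Vale.Agent.Results.P181.A0_BeyondStable

open Vale.Agent.P181

open Classical in
/-- Kernel criterion for the Foulkes-Howe map in symmetric group form, and the resulting Foulkes
multiplicity inequality.  `ρ` is an irreducible representation of `Perm Ω`, `|Ω| = a * b`, with a
nonzero vector fixed by the pointwise stabiliser of `T`.  If `|T| > b + 1` we also ask that for
every colouring `κ` taking more than `b` values on `T`, no nonzero vector of `ρ` is fixed by all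
permutations that map `T` into `T` and permute the colour classes of `κ` on `T`. -/
theorem result (a b : ℕ) (hb : 0 < b) {Ω : Type*} [Fintype Ω] (hΩ : Fintype.card Ω = a * b)
    [Fintype (BlockPartition Ω b)]
    {W : Type*} [AddCommGroup W] [Module ℂ W] (ρ : Representation ℂ (Equiv.Perm Ω) W)
    [ρ.IsIrreducible] (T : Finset Ω) (w : W) (hw : w ≠ 0)
    (hfix : ∀ g : Equiv.Perm Ω, (∀ x ∈ T, g x = x) → ρ g w = w)
    (hcol : b + 1 < T.card → ∀ κ : Ω → ℕ, b < (T.image κ).card → ∀ v : W,
      (∀ g : Equiv.Perm Ω, (∀ x ∈ T, g x ∈ T) →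
        (∀ x ∈ T, ∀ y ∈ T, (κ (g x) = κ (g y) ↔ κ x = κ y)) → ρ g v = v) → v = 0) :
    (∀ φ : ρ.IntertwiningMap
        (Representation.ofMulAction ℂ (Equiv.Perm Ω) (BlockPartition Ω b)),
      (∀ (u : W) (Q : BlockPartition Ω a),
        ∑ P : BlockPartition Ω b, (if Transversal P Q then (φ u).coeff P else 0) = 0) →
      φ = 0) ∧
    Module.finrank ℂ (ρ.IntertwiningMap
      (Representation.ofMulAction ℂ (Equiv.Perm Ω) (BlockPartition Ω b))) ≤
    Module.finrank ℂ (ρ.IntertwiningMap
      (Representation.ofMulAction ℂ (Equiv.Perm Ω) (BlockPartition Ω a))) := by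
  obtain rfl : ‹Fintype (BlockPartition Ω b)› = fintypeBlockPartition Ω b :=
    Subsingleton.elim _ _
  have H := psi_injective_on_fixed_col (a := a) hb hΩ ρ T w hfix hcol
  exact ⟨fun φ hφ => no_copy_in_kernel_of_key ρ w hw H φ hφ, multiplicity_le_of_key ρ w hw H⟩

end Vale.Agent.Results.P181.A0_BeyondStable
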