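import Mathlib
import Vale.Agent.P181.Defs
import Vale.Agent.P181.Rep3

namespace Vale.Agent.Results.P181.A1_ExplicitRange

open Vale.Agent.P181

open Classical in
/-- Foulkes multiplicity inequality for irreducible constituents of `Perm Ω`, `|Ω| = a * b`,
that have a nonzero vector fixed by the pointwise stabiliser of `T` but (if `|T| > b + 1`) no
nonzero vector fixed by the Young subgroup of all permutations fixing `T \ A` pointwise and
mapping `A` to `A`, for any subset `A` of `T` with `|A| + |T| ≥ 2 b + 2`. -/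
theorem result (a b : ℕ) (hb : 0 < b) {Ω : Type*} [Fintype Ω]
    (hΩ : Fintype.card Ω = a * b)
    {W : Type*} [AddCommGroup W] [Module ℂ W] (ρ : Representation ℂ (Equiv.Perm Ω) W)
    [ρ.IsIrreducible] (T : Finset Ω) (w : W) (hw : w ≠ 0)
    (hfix : ∀ g : Equiv.Perm Ω, (∀ x ∈ T, g x = x) → ρ g w = w)
    (hA : b + 1 < T.card → ∀ A ⊆ T, 2 * b + 2 ≤ A.card + T.card → ∀ v : W,
      (∀ g : Equiv.Perm Ω, (∀ x ∈ T \ A, g x = x) → (∀ x ∈ A, g x ∈ A) → ρ g v = v) → v = 0) :
    Module.finrank ℂ (ρ.IntertwiningMap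
      (Representation.ofMulAction ℂ (Equiv.Perm Ω) (BlockPartition Ω b))) ≤
    Module.finrank ℂ (ρ.IntertwiningMap
      (Representation.ofMulAction ℂ (Equiv.Perm Ω) (BlockPartition Ω a))) :=
  multiplicity_le_of_key ρ w hw (psi_injective_on_fixed_ext (a := a) hb hΩ ρ T w hfix hA)

end Vale.Agent.Results.P181.A1_ExplicitRange
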