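import Mathlib
import Vale.Agent.P181.Defs
import Vale.Agent.P181.Rep
import Vale.Agent.P181.V5

namespace Vale.Agent.Results.P181.A2_GeneralisedStable

open Vale.Agent.P181

/-- Generalised (Vessenes type) Foulkes chain in the stable range: if `|Ω| = a * b = c * d` with
`a ≤ c`, then for every irreducible constituent that has a nonzero vector fixed by the pointwise
stabiliser of a set of at most `d` points, its multiplicity in the permutation module on set
partitions into blocks of size `b` is at most its multiplicity for blocks of size `d`, which is at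
most its multiplicity for blocks of size `c`. -/
theorem result (a b c d : ℕ) (hb : 0 < b) (hd : 0 < d) {Ω : Type*} [Fintype Ω]
    (hΩ : Fintype.card Ω = a * b) (hΩ' : Fintype.card Ω = c * d) (hac : a ≤ c)
    {W : Type*} [AddCommGroup W] [Module ℂ W] (ρ : Representation ℂ (Equiv.Perm Ω) W)
    [ρ.IsIrreducible] (T : Finset Ω) (hT : T.card ≤ d) (w : W) (hw : w ≠ 0)
    (hfix : ∀ g : Equiv.Perm Ω, (∀ x ∈ T, g x = x) → ρ g w = w) :
    Module.finrank ℂ (ρ.IntertwiningMap
      (Representation.ofMulAction ℂ (Equiv.Perm Ω) (BlockPartition Ω b))) ≤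
    Module.finrank ℂ (ρ.IntertwiningMap
      (Representation.ofMulAction ℂ (Equiv.Perm Ω) (BlockPartition Ω d))) ∧
    Module.finrank ℂ (ρ.IntertwiningMap
      (Representation.ofMulAction ℂ (Equiv.Perm Ω) (BlockPartition Ω d))) ≤
    Module.finrank ℂ (ρ.IntertwiningMap
      (Representation.ofMulAction ℂ (Equiv.Perm Ω) (BlockPartition Ω c))) :=
  ⟨multiplicity_le_gen hb hd hΩ hΩ' hac ρ T hT w hw hfix,
    multiplicity_le hd hΩ' ρ T (Nat.le_succ_of_le hT) w hw hfix⟩

end Vale.Agent.Results.P181.A2_GeneralisedStable
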