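import Mathlib
import Vale.Agent.P181.Defs
import Vale.Agent.P181.Rep

namespace Vale.Agent.Results.P181.StableFoulkes

open Vale.Agent.P181

/-- Foulkes multiplicity inequality for all irreducible constituents that have a nonzero vector
fixed by the pointwise stabiliser of a set of at most `b + 1` points. -/
theorem result (a b : ℕ) (hb : 0 < b) {Ω : Type*} [Fintype Ω] (hΩ : Fintype.card Ω = a * b)
    {W : Type*} [AddCommGroup W] [Module ℂ W] (ρ : Representation ℂ (Equiv.Perm Ω) W)
    [ρ.IsIrreducible] (T : Finset Ω) (hT : T.card ≤ b + 1) (w : W) (hw : w ≠ 0)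
    (hfix : ∀ g : Equiv.Perm Ω, (∀ x ∈ T, g x = x) → ρ g w = w) :
    Module.finrank ℂ (ρ.IntertwiningMap
      (Representation.ofMulAction ℂ (Equiv.Perm Ω) (BlockPartition Ω b))) ≤
    Module.finrank ℂ (ρ.IntertwiningMap
      (Representation.ofMulAction ℂ (Equiv.Perm Ω) (BlockPartition Ω a))) :=
  multiplicity_le hb hΩ ρ T hT w hw hfix

end Vale.Agent.Results.P181.StableFoulkes
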